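import Vale.Agent.P323.H610.UModel
import Vale.Agent.P323.H70.Size

/-!
# The core of the partition principle in the permutation model of a tower
-/

open Cardinal

namespace Vale.Agent.P323.U

open CategoryTheory Vale.Agent.P323.Z

section hyps

variable (D : Type 1) [Category.{1} D]

/-- step 1 of section 9, uncoloured -/
def Step1 : Prop := ∀ {b : D} (E : NEq b) {x d : D} {u v : b ⟶ x} {s t : d ⟶ b},
  E.rel u v → IsPB s t u v → E.EE s

/-- joint separation, different stages -/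
def JS1 [Tw D] : Prop := ∀ {n : ℕ} {c : D} {α : (a n : D) ⟶ c} {j j' : Ordinal.{0}} {b b' : D}
  (E : PG D j b) (E' : PG D j' b') {γ : (a (n + 1) : D) ⟶ b} {γ' : (a (n + 1) : D) ⟶ b'}
  (hα : Mem j α) (hα' : Mem j' α) (hγ : Mem j γ) (hγ' : Mem j' γ')
  (inv : ∀ {d : D} {s t : d ⟶ b}, E.rel s t →
    ∃ v : (a (n + 1) : D) ⟶ d, v ≫ s = γ ∧ v ≫ t = γ)
  (inv' : ∀ {d : D} {s t : d ⟶ b'}, E'.rel s t →
    ∃ v : (a (n + 1) : D) ⟶ d, v ≫ s = γ' ∧ v ≫ t = γ')
  {w f : D} (e : b ⟶ w) (e' : b' ⟶ w) (s t : f ⟶ c), γ ≫ e = γ' ≫ e' →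
  s ≫ Tw.gen ⟨n, c, α, b, E, γ, hα, hγ, inv⟩ ≫ e =
    t ≫ Tw.gen ⟨n, c, α, b', E', γ', hα', hγ', inv'⟩ ≫ e' →
  ¬ Thru s α → ¬ Thru t α → j = j'

/-- joint separation, the same task -/
def JS2 [Tw D] : Prop := ∀ {j : Ordinal.{0}} (τ : Task D j) {w f : D} (e e' : τ.b ⟶ w)
  (s t : f ⟶ τ.c), τ.γ ≫ e = τ.γ ≫ e' → s ≫ Tw.gen τ ≫ e = t ≫ Tw.gen τ ≫ e' →
  ¬ Thru s τ.α → ¬ Thru t τ.α →
  ∃ (d : D) (x y : d ⟶ τ.b), τ.E.rel x y ∧ x ≫ e = y ≫ e'

end hyps

section

variable {D : Type 1} [Category.{1} D] [TwBase D]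

theorem mem_chain {n m : ℕ} (h : n ≤ m) (i : Ordinal.{0}) : Mem i (chain (D := D) h) := by
  refine TwBase.mem_mono (bot_le : (0 : Ordinal) ≤ i) ?_
  induction m, h using Nat.le_induction with
  | base => rw [chain_refl]; exact TwBase.mem_src (TwBase.ι_mem n)
  | succ k hk ih =>
    have := chain_trans (D := D) hk (Nat.le_succ k)
    rw [← this, chain_succ]
    exact TwBase.mem_comp ih (TwBase.ι_mem k)

/-- A Q-piece: a map of `a m` over `a n` to a later member of the chain. -/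
structure QP (D : Type 1) [Category.{1} D] [TwBase D] {n m : ℕ} (h : n ≤ m) where
  M : ℕ
  hM : n + 1 ≤ M
  u : (a m : D) ⟶ a M
  hu : chain h ≫ u = chain ((Nat.le_succ n).trans hM)

theorem card_hom_le {x : D} : #(Σ M : ℕ, (x ⟶ (a M : D))) ≤ #(Ordinal.{0}) := by
  classical
  have hex : ∀ q : Σ M : ℕ, (x ⟶ (a M : D)), ∃ i, Mem i q.2 := fun q => TwBase.mem_ex q.2
  refine P323.H70.mk_le_of_birth (fun q => sInf {i | Mem i q.2}) fun i => ?_
  have hs := TwBase.small (D := D) i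
  have key : ∀ q : {q : Σ M : ℕ, (x ⟶ (a M : D)) // sInf {i | Mem i q.2} = i},
      Mem i q.1.2 := by
    intro q
    have h1 : sInf {i | Mem i q.1.2} ∈ {i | Mem i q.1.2} := csInf_mem (hex q.1)
    rw [q.2] at h1
    exact h1
  refine small_of_injective (β := ℕ × {f : Σ x y : D, (x ⟶ y) // Mem i f.2.2})
    (f := fun q => ⟨q.1.1, ⟨⟨x, a q.1.1, q.1.2⟩, key q⟩⟩) ?_
  rintro ⟨⟨M, u⟩, hq⟩ ⟨⟨M', u'⟩, hq'⟩ hqq
  simp only [Prod.mk.injEq, Subtype.mk.injEq, Sigma.mk.injEq, heq_eq_eq, true_and] at hqq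
  obtain ⟨rfl, hqq⟩ := hqq
  simp only [heq_eq_eq, true_and] at hqq
  subst hqq
  rfl

theorem exists_psi {n m : ℕ} (h : n ≤ m) (iq : QP D h → Ordinal.{0}) :
    ∃ ψ : QP D h → Ordinal.{0}, Function.Injective ψ ∧ ∀ q, iq q ≤ ψ q := by
  classical
  have hcard : #(QP D h) ≤ #(Ordinal.{0}) := by
    refine (P323.H70.mk_le_of_injective' (U := Σ M : ℕ, ((a m : D) ⟶ (a M : D)))
      (fun q => ⟨q.M, q.u⟩) ?_ card_hom_le)
    rintro ⟨M, hM, u, hu⟩ ⟨M', hM', u', hu'⟩ hq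
    simp only [Sigma.mk.injEq] at hq
    obtain ⟨rfl, hq⟩ := hq
    obtain rfl := eq_of_heq hq
    rfl
  by_cases hN : Nonempty (QP D h)
  · obtain ⟨asg, hasg⟩ := P323.H70.exists_asg hcard
    choose b hb hb' using fun q : QP D h => hasg q (iq q)
    exact ⟨b, fun q q' hqq => by rw [← hb' q, ← hb' q', hqq], hb⟩
  · exact ⟨iq, fun q => (hN ⟨q⟩).elim, fun _ => le_rfl⟩

end

section core

variable {D : Type 1} [Category.{1} D] [Tw D] {TX TY : Type 1} [MulAction (Aut D) TX]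
  [MulAction (Aut D) TY]

/-- the equivalence relation of a Q-piece -/
noncomputable def relQ (hne : ∀ x : D, Nonempty (Emb x)) (hom : Homog D) {n m : ℕ} {h : n ≤ m}
    (r : TY) (q : QP D h) : NEq (a q.M : D) where
  rel e e' := chain q.hM ≫ e = chain q.hM ≫ e' ∧ (eqN hne hom r).rel (q.u ≫ e) (q.u ≫ e')
  equiv x := ⟨fun e => ⟨rfl, ((eqN hne hom r).equiv x).refl _⟩,
    fun h => ⟨h.1.symm, ((eqN hne hom r).equiv x).symm h.2⟩,
    fun h h' => ⟨h.1.trans h'.1, ((eqN hne hom r).equiv x).trans h.2 h'.2⟩⟩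
  nat w e e' := by
    have := TwBase.mono w
    rw [← Category.assoc, ← Category.assoc, ← Category.assoc, ← Category.assoc, cancel_mono,
      (eqN hne hom r).nat w]

theorem relQ_of (hne : ∀ x : D, Nonempty (Emb x)) (hom : Homog D) {n m : ℕ} {h : n ≤ m}
    {r : TY} (hr : Supp D TY m r) (q : QP D h) {N : ℕ} {v v' : (a q.M : D) ⟶ a N}
    (h1 : Emb.res (chain q.hM) (Emb.mk N v) = Emb.res (chain q.hM) (Emb.mk N v'))
    (h2 : tr hom r (Emb.res q.u (Emb.mk N v)) = tr hom r (Emb.res q.u (Emb.mk N v'))) :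
    (relQ hne hom r q).rel v v' := by
  refine ⟨mk_inj h1, ?_⟩
  rw [eqN_rel_iff hne hr (std N), ← Emb.res_res, ← Emb.res_res, ← mk_eq_res_std,
    ← mk_eq_res_std]
  exact h2

theorem of_relQ (hne : ∀ x : D, Nonempty (Emb x)) (hom : Homog D) {n m : ℕ} {h : n ≤ m}
    {r : TY} (hr : Supp D TY m r) (q : QP D h) {N : ℕ} {v v' : (a q.M : D) ⟶ a N}
    (h' : (relQ hne hom r q).rel v v') :
    tr hom r (Emb.res q.u (Emb.mk N v)) = tr hom r (Emb.res q.u (Emb.mk N v')) := by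
  have h2 := h'.2
  rw [eqN_rel_iff hne hr (std N), ← Emb.res_res, ← Emb.res_res, ← mk_eq_res_std,
    ← mk_eq_res_std] at h2
  exact h2

theorem inv_of_codes {b : D} {E : NEq b} {j : Ordinal.{0}} {P : PG D j b} (hP : Codes E P)
    {c : D} {γ : c ⟶ b} (hγ : ∀ {x : D} (e e' : b ⟶ x), E.rel e e' → γ ≫ e = γ ≫ e')
    {d : D} {s t : d ⟶ b} (hst : P.rel s t) : ∃ v : c ⟶ d, v ≫ s = γ ∧ v ≫ t = γ := by
  obtain ⟨hs, ht⟩ := P.mem hst
  have h0 := Tw.K0 j s t hs ht
  have h1 : E.rel (Tw.jl j s t hs ht) (Tw.jr j s t hs ht) := (hP _ _).2 ⟨d, s, t, hst, h0⟩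
  obtain ⟨v, hv, hv'⟩ := (Tw.K1 j s t hs ht).2 γ γ (hγ _ _ h1)
  exact ⟨v, hv, hv'⟩

/-- **The core of the partition principle.** -/
theorem core (hne : ∀ x : D, Nonempty (Emb x)) (hom : Homog D) (hcod : Coded D)
    (hstep : Step1 D) (js1 : JS1 D) (js2 : JS2 D) {n m : ℕ} (h : n ≤ m) {p : TX} {r : TY}
    (hp : Supp D TX m p) (hr : Supp D TY m r) (hpr : Supp D TX n p → Supp D TY n r) :
    ∃ f : ∀ q : QP D h, (a m : D) ⟶ a q.M,
      (∀ q, chain h ≫ f q = chain ((Nat.le_succ n).trans q.hM)) ∧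
      (∀ q, ∀ k ∈ stab (std (D := D) (n + 1)),
        k • tr hom r (Emb.mk q.M q.u) = tr hom r (Emb.mk q.M q.u) →
        k • tr hom p (Emb.mk q.M (f q)) = tr hom p (Emb.mk q.M (f q))) ∧
      (¬ Supp D TY n r → ∀ q q', ∀ g ∈ stab (std (D := D) (n + 1)),
        ∀ g' ∈ stab (std (D := D) (n + 1)),
        g • tr hom p (Emb.mk q.M (f q)) = g' • tr hom p (Emb.mk q'.M (f q')) →
        g • tr hom r (Emb.mk q.M q.u) = g' • tr hom r (Emb.mk q'.M q'.u)) := by
  choose iq hiq using fun q : QP D h => hcod (relQ hne hom r q)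
  obtain ⟨ψ, hψ, hψi⟩ := exists_psi h iq
  choose P hP using fun q : QP D h => hiq q (ψ q) (hψi q)
  have hinv : ∀ q : QP D h, ∀ {d : D} {s t : d ⟶ a q.M}, (P q).rel s t →
      ∃ v : (a (n + 1) : D) ⟶ d, v ≫ s = chain q.hM ∧ v ≫ t = chain q.hM :=
    fun q {d s t} hst => inv_of_codes (hP q) (fun e e' he => he.1) hst
  set τ : ∀ q : QP D h, Task D (ψ q) := fun q =>
    ⟨n, a m, chain h, a q.M, P q, chain q.hM, mem_chain h _, mem_chain q.hM _, hinv q⟩ with hτ
  have hαf : ∀ q, chain h ≫ Tw.gen (τ q) = chain ((Nat.le_succ n).trans q.hM) := by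
    intro q
    have h1 := Tw.gen_α (τ q)
    have h2 := chain_trans (D := D) (Nat.le_succ n) q.hM
    rw [chain_succ] at h2
    rw [← h2]
    exact h1
  refine ⟨fun q => Tw.gen (τ q), hαf, ?_, ?_⟩
  · intro q k hk hkr
    obtain ⟨N, hN, v, hv⟩ := exists_rep (k • std (D := D) q.M) q.M
    have hs : std (D := D) q.M = Emb.mk N (chain hN) := by
      have := Emb.mk_chain hN (𝟙 (a q.M : D))
      rw [Category.id_comp] at this
      exact this.symm
    have h1 : (relQ hne hom r q).rel (chain hN) v := by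
      refine relQ_of hne hom hr q ?_ ?_
      · rw [← hs, ← hv, ← smul_res, res_chain_std]
        exact hk.symm
      · rw [← hs, ← hv, ← smul_res, tr_smul hr, ← mk_eq_res_std]
        exact hkr.symm
    obtain ⟨d, s, t, hst, e⟩ := (hP q _ _).1 h1
    obtain ⟨f', h2, h3⟩ := Tw.gen_inv (τ q) hst
    have h4 : Tw.gen (τ q) ≫ chain hN = Tw.gen (τ q) ≫ v := by
      conv_lhs => rw [← h2]
      conv_rhs => rw [← h3]
      rw [Category.assoc, Category.assoc]
      exact congrArg _ e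
    have h5 : k • Emb.mk q.M (Tw.gen (τ q)) = Emb.mk q.M (Tw.gen (τ q)) := by
      rw [mk_eq_res_std, smul_res, hv, hs]
      exact congrArg (Emb.mk N) h4.symm
    show k • tr hom p (Emb.mk q.M (Tw.gen (τ q))) = tr hom p (Emb.mk q.M (Tw.gen (τ q)))
    rw [← tr_smul hp, h5]
  · intro hns q q' g hg g' hg' heq
    obtain ⟨N, -, v, v', hv, hv'⟩ := exists_rep₂ (g • std (D := D) q.M) (g' • std (D := D) q'.M) 0
    have e1 : g • tr hom p (Emb.mk q.M (Tw.gen (τ q))) =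
        tr hom p (Emb.mk N (Tw.gen (τ q) ≫ v)) := by
      rw [← tr_smul hp, mk_eq_res_std, smul_res, hv]; rfl
    have e2 : g' • tr hom p (Emb.mk q'.M (Tw.gen (τ q'))) =
        tr hom p (Emb.mk N (Tw.gen (τ q') ≫ v')) := by
      rw [← tr_smul hp, mk_eq_res_std, smul_res, hv']; rfl
    have e3 : tr hom p (Emb.mk N (Tw.gen (τ q) ≫ v)) =
        tr hom p (Emb.mk N (Tw.gen (τ q') ≫ v')) := by
      rw [← e1, ← e2]; exact heq
    have hγ : chain q.hM ≫ v = chain q'.hM ≫ v' := by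
      refine mk_inj (n := N) ?_
      have k1 : Emb.mk N (chain q.hM ≫ v) = std (n + 1) := by
        rw [← Emb.res_mk, ← hv, ← smul_res, res_chain_std]
        exact hg
      have k2 : Emb.mk N (chain q'.hM ≫ v') = std (n + 1) := by
        rw [← Emb.res_mk, ← hv', ← smul_res, res_chain_std]
        exact hg'
      rw [k1, k2]
    -- the pullback of the two maps
    have hrel : (eqN hne hom p).rel (Tw.gen (τ q) ≫ v) (Tw.gen (τ q') ≫ v') := by
      rw [eqN_rel_iff hne hp (std N), ← mk_eq_res_std, ← mk_eq_res_std]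
      exact e3
    have hns' : ∀ {d : D} {s : d ⟶ a m}, (eqN hne hom p).EE s → ¬ Thru s (chain h) := by
      rintro d s hs ⟨w, hw⟩
      refine hns (hpr ?_)
      intro k hk
      obtain ⟨K, hK, z, hz⟩ := exists_rep (k • std (D := D) m) m
      have hs' : std (D := D) m = Emb.mk K (chain hK) := by
        have := Emb.mk_chain hK (𝟙 (a m : D))
        rw [Category.id_comp] at this
        exact this.symm
      have k1 : chain h ≫ chain hK = chain h ≫ z := by
        refine mk_inj (n := K) ?_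
        rw [← Emb.res_mk, ← Emb.res_mk, ← hz, ← hs', ← smul_res, res_chain_std]
        exact hk.symm
      have k2 : (eqN hne hom p).rel (chain hK) z := by
        refine hs _ _ ?_
        rw [← hw, Category.assoc, Category.assoc, k1]
      rw [eqN_rel_iff hne hp (std K), ← mk_eq_res_std, ← mk_eq_res_std, ← hz, ← hs',
        tr_smul hp, tr_std hp] at k2
      exact k2.symm
    obtain ⟨i1, hi1⟩ := TwBase.mem_ex (Tw.gen (τ q) ≫ v)
    obtain ⟨i2, hi2⟩ := TwBase.mem_ex (Tw.gen (τ q') ≫ v')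
    obtain ⟨d, s, t, -, -, hpb⟩ := TwBase.pb (TwBase.mem_mono (le_max_left i1 i2) hi1)
      (TwBase.mem_mono (le_max_right i1 i2) hi2)
    have hs1 : ¬ Thru s (chain h) := hns' (hstep _ hrel hpb)
    have hs2 : ¬ Thru t (chain h) :=
      hns' (hstep _ (((eqN hne hom p).equiv _).symm hrel) hpb.symm)
    have hqq : ψ q = ψ q' := js1 (P q) (P q') (mem_chain h _) (mem_chain h _)
      (mem_chain q.hM _) (mem_chain q'.hM _) (hinv q) (hinv q') v v' s t hγ hpb.1 hs1 hs2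
    obtain rfl := hψ hqq
    obtain ⟨d', x, y, hxy, hxy'⟩ := js2 (τ q) v v' s t hγ hpb.1 hs1 hs2
    have h6 : (relQ hne hom r q).rel v v' := (hP q _ _).2 ⟨d', x, y, hxy, hxy'⟩
    have h7 := of_relQ hne hom hr q h6
    rw [← hv, ← hv', ← smul_res, ← smul_res, tr_smul hr, tr_smul hr, ← mk_eq_res_std] at h7
    exact h7

end core

end Vale.Agent.P323.U
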