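import Vale.Agent.P323.Z.Tower
import Vale.Agent.P323.Defs

/-!
# The permutation model of a tower: definitions (uncoloured version)
-/

namespace Vale.Agent.P323.U

open CategoryTheory Vale.Agent.P323.Z

section limit

variable {D : Type 1} [Category.{1} D] [TwBase D]

/-- the maps of the chain -/
def chain {n m : ℕ} (h : n ≤ m) : (a n : D) ⟶ a m :=
  (Functor.ofSequence (fun n => (ι n : (a n : D) ⟶ a (n + 1)))).map (homOfLE h)

@[simp] theorem chain_refl (n : ℕ) : chain (D := D) (le_refl n) = 𝟙 _ :=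
  (Functor.ofSequence _).map_id _

theorem chain_trans {n m k : ℕ} (h : n ≤ m) (h' : m ≤ k) :
    chain (D := D) h ≫ chain h' = chain (h.trans h') :=
  ((Functor.ofSequence (fun n => (ι n : (a n : D) ⟶ a (n + 1)))).map_comp
    (homOfLE h) (homOfLE h')).symm

theorem chain_succ (n : ℕ) : chain (D := D) (Nat.le_succ n) = ι n :=
  Functor.ofSequence_map_homOfLE_succ _ n

/-- two maps to the chain are identified if they become equal later -/
def embSetoid (x : D) : Setoid (Σ n : ℕ, x ⟶ (a n : D)) where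
  r p q := ∃ (k : ℕ) (h : p.1 ≤ k) (h' : q.1 ≤ k), p.2 ≫ chain h = q.2 ≫ chain h'
  iseqv := by
    refine ⟨fun p => ⟨p.1, le_rfl, le_rfl, rfl⟩, ?_, ?_⟩
    · rintro p q ⟨k, h, h', e⟩
      exact ⟨k, h', h, e.symm⟩
    · rintro p q r ⟨k, h, h', e⟩ ⟨l, g, g', e'⟩
      refine ⟨max k l, h.trans (le_max_left _ _), g'.trans (le_max_right _ _), ?_⟩
      rw [← chain_trans h (le_max_left k l), ← chain_trans g' (le_max_right k l),
        ← Category.assoc, e, Category.assoc, chain_trans, ← Category.assoc, ← e',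
        Category.assoc, chain_trans]

/-- the embeddings of `x` in the limit of the chain -/
def Emb (x : D) : Type 1 := Quotient (embSetoid x)

def Emb.mk {x : D} (n : ℕ) (u : x ⟶ (a n : D)) : Emb x := Quotient.mk (embSetoid x) ⟨n, u⟩

theorem Emb.ind {x : D} {p : Emb x → Prop} (h : ∀ n u, p (Emb.mk n u)) (e : Emb x) : p e :=
  Quotient.ind (fun q => h q.1 q.2) e

theorem Emb.mk_eq_iff {x : D} {n m : ℕ} {u : x ⟶ (a n : D)} {v : x ⟶ (a m : D)} :
    Emb.mk n u = Emb.mk m v ↔ ∃ (k : ℕ) (h : n ≤ k) (h' : m ≤ k), u ≫ chain h = v ≫ chain h' :=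
  Quotient.eq (r := embSetoid x)

theorem Emb.mk_chain {x : D} {n m : ℕ} (h : n ≤ m) (u : x ⟶ (a n : D)) :
    Emb.mk m (u ≫ chain h) = Emb.mk n u :=
  Emb.mk_eq_iff.2 ⟨m, le_rfl, h, by simp⟩

/-- restriction -/
def Emb.res {x y : D} (f : x ⟶ y) : Emb y → Emb x :=
  Quotient.map' (s₁ := embSetoid y) (s₂ := embSetoid x) (fun p => ⟨p.1, f ≫ p.2⟩) (by
    rintro p q ⟨k, h, h', e⟩
    refine ⟨k, h, h', ?_⟩
    simp only [Category.assoc]
    rw [e])

theorem Emb.res_mk {x y : D} (f : x ⟶ y) (n : ℕ) (u : y ⟶ (a n : D)) :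
    Emb.res f (Emb.mk n u) = Emb.mk n (f ≫ u) := rfl

theorem Emb.res_id {x : D} (e : Emb x) : Emb.res (𝟙 x) e = e := by
  induction e using Emb.ind with
  | _ n u => rw [Emb.res_mk, Category.id_comp]

theorem Emb.res_res {x y z : D} (f : x ⟶ y) (g : y ⟶ z) (e : Emb z) :
    Emb.res f (Emb.res g e) = Emb.res (f ≫ g) e := by
  induction e using Emb.ind with
  | _ n u => rw [Emb.res_mk, Emb.res_mk, Emb.res_mk, Category.assoc]

/-- the standard embeddings -/
def std (n : ℕ) : Emb (a n : D) := Emb.mk n (𝟙 _)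

theorem res_chain_std {n m : ℕ} (h : n ≤ m) : Emb.res (chain h) (std (D := D) m) = std n := by
  rw [std, Emb.res_mk, Category.comp_id]
  have := Emb.mk_chain h (𝟙 (a n : D))
  rwa [Category.id_comp] at this

theorem mk_eq_res_std {x : D} (n : ℕ) (u : x ⟶ (a n : D)) : Emb.mk n u = Emb.res u (std n) := by
  rw [std, Emb.res_mk, Category.comp_id]

variable (D) in
/-- the automorphism group of the limit -/
def Aut : Subgroup (∀ x : D, Equiv.Perm (Emb x)) where
  carrier := {g | ∀ {x y : D} (f : x ⟶ y) (e : Emb y), g x (Emb.res f e) = Emb.res f (g y e)}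
  one_mem' := fun _ _ => rfl
  mul_mem' := by
    intro g h hg hh x y f e
    simp only [Pi.mul_apply, Equiv.Perm.mul_apply]
    rw [hh, hg]
  inv_mem' := by
    intro g hg x y f e
    simp only [Pi.inv_apply]
    rw [Equiv.Perm.inv_def, Equiv.symm_apply_eq, hg, Equiv.Perm.inv_def, Equiv.apply_symm_apply]

instance (x : D) : MulAction (Aut D) (Emb x) where
  smul g e := g.1 x e
  one_smul _ := rfl
  mul_smul _ _ _ := rfl

theorem smul_def {x : D} (g : Aut D) (e : Emb x) : g • e = g.1 x e := rfl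

theorem smul_res {x y : D} (g : Aut D) (f : x ⟶ y) (e : Emb y) :
    g • Emb.res f e = Emb.res f (g • e) := g.2 f e

variable (D) in
/-- homogeneity (proved in U1) -/
def Homog : Prop := ∀ (x : D) (e e' : Emb x), ∃ g : Aut D, g • e = e'

end limit

/-! ### imaginaries -/

section imag

variable {D : Type 1} [Category.{1} D]

/-- A natural equivalence relation on the embeddings of `b`. -/
structure NEq (b : D) where
  rel : ∀ {x : D}, (b ⟶ x) → (b ⟶ x) → Prop
  equiv : ∀ x : D, Equivalence (fun e e' : b ⟶ x => rel e e')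
  nat : ∀ {x y : D} (w : x ⟶ y) (e e' : b ⟶ x), rel (e ≫ w) (e' ≫ w) ↔ rel e e'

/-- the filter of an imaginary -/
def NEq.EE {b : D} (E : NEq b) {d : D} (s : d ⟶ b) : Prop :=
  ∀ {x : D} (e e' : b ⟶ x), s ≫ e = s ≫ e' → E.rel e e'

/-- the pseudogroup `P` defines the natural equivalence relation `E` -/
def Codes [TwBase D] {b : D} (E : NEq b) {j : Ordinal.{0}} (P : PG D j b) : Prop :=
  ∀ {x : D} (e e' : b ⟶ x), E.rel e e' ↔
    ∃ (d : D) (s t : d ⟶ b), P.rel s t ∧ s ≫ e = t ≫ e'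

variable (D) in
/-- imaginaries are coded (proved in U2) -/
def Coded [TwBase D] : Prop := ∀ {b : D} (E : NEq b), ∃ i : Ordinal.{0}, ∀ j, i ≤ j →
  ∃ P : PG D j b, Codes E P

end imag

end Vale.Agent.P323.U
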