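import Vale.Agent.P323.H610.UDefs

/-!
# The permutation model of a tower: the filter and points as functions of embeddings
-/

namespace Vale.Agent.P323.U

open CategoryTheory Vale.Agent.P323.Z

section

variable {D : Type 1} [Category.{1} D] [TwBase D]

/-- the stabilizer of an embedding -/
def stab {x : D} (e : Emb x) : Subgroup (Aut D) := MulAction.stabilizer (Aut D) e

theorem mem_stab {x : D} {e : Emb x} {g : Aut D} : g ∈ stab e ↔ g • e = e := Iff.rfl

theorem stab_le_res {x y : D} (f : x ⟶ y) (e : Emb y) : stab e ≤ stab (Emb.res f e) := by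
  intro g hg
  rw [mem_stab] at hg ⊢
  rw [smul_res, hg]

theorem stab_std_anti {n m : ℕ} (h : n ≤ m) : stab (std (D := D) m) ≤ stab (std n) := by
  rw [← res_chain_std h]
  exact stab_le_res _ _

theorem mk_res {x : D} (e : Emb x) : ∃ (n : ℕ) (u : x ⟶ (a n : D)), e = Emb.res u (std n) := by
  induction e using Emb.ind with
  | _ n u => exact ⟨n, u, mk_eq_res_std n u⟩

/-- an embedding can be represented at every sufficiently large level -/
theorem exists_rep {x : D} (e : Emb x) (k : ℕ) :
    ∃ (n : ℕ) (_ : k ≤ n) (u : x ⟶ (a n : D)), e = Emb.mk n u := by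
  induction e using Emb.ind with
  | _ n u => exact ⟨max k n, le_max_left _ _, u ≫ chain (le_max_right _ _),
      (Emb.mk_chain _ _).symm⟩

/-- two embeddings can be represented at the same level -/
theorem exists_rep₂ {x y : D} (e : Emb x) (e' : Emb y) (k : ℕ) :
    ∃ (n : ℕ) (_ : k ≤ n) (u : x ⟶ (a n : D)) (v : y ⟶ (a n : D)),
      e = Emb.mk n u ∧ e' = Emb.mk n v := by
  obtain ⟨n, hn, u, rfl⟩ := exists_rep e k
  obtain ⟨m, hm, v, rfl⟩ := exists_rep e' n
  exact ⟨m, hn.trans hm, u ≫ chain hm, v, (Emb.mk_chain _ _).symm, rfl⟩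

theorem mk_inj {x : D} {n : ℕ} {u v : x ⟶ (a n : D)} (h : Emb.mk n u = Emb.mk n v) : u = v := by
  obtain ⟨k, h1, h2, e⟩ := Emb.mk_eq_iff.1 h
  have := TwBase.mono (chain (D := D) h1)
  exact (cancel_mono _).1 e

theorem res_std_inj {x : D} {n : ℕ} {u v : x ⟶ (a n : D)}
    (h : Emb.res u (std n) = Emb.res v (std n)) : u = v := by
  rw [← mk_eq_res_std, ← mk_eq_res_std] at h
  exact mk_inj h

variable (D) in
/-- the normal filter of the model -/
def filt : NormalFilter (Aut D) where
  mem H := ∃ n, stab (std n) ≤ H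
  top_mem := ⟨0, le_top⟩
  inter := by
    rintro H K ⟨n, hn⟩ ⟨m, hm⟩
    exact ⟨max n m, le_inf ((stab_std_anti (le_max_left _ _)).trans hn)
      ((stab_std_anti (le_max_right _ _)).trans hm)⟩
  up := by
    rintro H K ⟨n, hn⟩ h
    exact ⟨n, hn.trans h⟩
  conj := by
    rintro H g ⟨n, hn⟩
    obtain ⟨m, u, hu⟩ := mk_res (g • std (D := D) n)
    refine ⟨m, fun k hk => ?_⟩
    have h1 : k • g • std (D := D) n = g • std n := by
      rw [hu]
      exact stab_le_res u _ hk
    refine ⟨g⁻¹ * k * g, hn ?_, ?_⟩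
    · rw [mem_stab, mul_smul, mul_smul, h1, inv_smul_smul]
    · simp [MulAut.conj_apply, mul_assoc]

/-! ### points as functions of embeddings -/

section tr

variable (hom : Homog D) {T : Type 1} [MulAction (Aut D) T]

/-- the point `p`, moved so that `e` plays the role of the standard embedding -/
noncomputable def tr {m : ℕ} (p : T) (e : Emb (a m : D)) : T := (hom _ (std m) e).choose • p

/-- `p` is supported by the standard embedding of `a n` -/
def Supp (D : Type 1) [Category.{1} D] [TwBase D] (T : Type 1) [MulAction (Aut D) T] (n : ℕ)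
    (p : T) : Prop := ∀ k ∈ stab (std (D := D) n), k • p = p

variable {hom}

theorem Supp.mono {n m : ℕ} (h : n ≤ m) {p : T} (hp : Supp D T n p) : Supp D T m p :=
  fun k hk => hp k (stab_std_anti h hk)

theorem tr_smul_std {m : ℕ} {p : T} (hp : Supp D T m p) (g : Aut D) :
    tr hom p (g • std m) = g • p := by
  set g' := (hom _ (std m) (g • std m)).choose with hg'
  have h : g' • std m = g • std m := (hom _ (std m) (g • std m)).choose_spec
  have h1 : (g⁻¹ * g') • p = p := by
    refine hp _ ?_
    rw [mem_stab, mul_smul, h, inv_smul_smul]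
  have h2 : g' • p = g • p := by
    rw [mul_smul, inv_smul_eq_iff] at h1
    exact h1
  exact h2

theorem tr_std {m : ℕ} {p : T} (hp : Supp D T m p) : tr hom p (std m) = p := by
  have := tr_smul_std (hom := hom) hp 1
  rwa [one_smul, one_smul] at this

theorem tr_smul {m : ℕ} {p : T} (hp : Supp D T m p) (g : Aut D) (e : Emb (a m : D)) :
    tr hom p (g • e) = g • tr hom p e := by
  obtain ⟨h, rfl⟩ := hom _ (std m) e
  rw [← mul_smul, tr_smul_std hp, tr_smul_std hp, mul_smul]

/-- every embedding is an extension of a given one -/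
theorem res_surj (hne : ∀ x : D, Nonempty (Emb x)) (hom : Homog D) {x y : D} (w : x ⟶ y)
    (e : Emb x) : ∃ e' : Emb y, Emb.res w e' = e := by
  obtain ⟨e0⟩ := hne y
  obtain ⟨g, hg⟩ := hom x (Emb.res w e0) e
  exact ⟨g • e0, by rw [← smul_res, hg]⟩

/-- the equality of the point `p`, as a natural equivalence relation -/
noncomputable def eqN (hne : ∀ x : D, Nonempty (Emb x)) (hom : Homog D) {m : ℕ} (p : T) :
    NEq (a m : D) where
  rel e e' := ∀ h, tr hom p (Emb.res e h) = tr hom p (Emb.res e' h)
  equiv x := ⟨fun _ _ => rfl, fun h k => (h k).symm, fun h h' k => (h k).trans (h' k)⟩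
  nat w e e' := by
    constructor
    · intro h k
      obtain ⟨k', rfl⟩ := res_surj hne hom w k
      rw [Emb.res_res, Emb.res_res]
      exact h k'
    · intro h k
      rw [← Emb.res_res, ← Emb.res_res]
      exact h _

theorem eqN_rel_iff (hne : ∀ x : D, Nonempty (Emb x)) {m : ℕ} {p : T} (hp : Supp D T m p)
    {x : D} {e e' : (a m : D) ⟶ x} (h : Emb x) :
    (eqN hne hom p).rel e e' ↔ tr hom p (Emb.res e h) = tr hom p (Emb.res e' h) := by
  constructor
  · intro h'
    exact h' h
  · intro h' k
    obtain ⟨g, rfl⟩ := hom x h k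
    rw [← smul_res, ← smul_res, tr_smul hp, tr_smul hp, h']

end tr

end

end Vale.Agent.P323.U
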