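import Vale.Agent.P323.H610.UPP
import Vale.Agent.P323.H459.Imag
import Vale.Agent.P323.H21.JS

/-!
# The axiom of choice fails in the permutation model of a tower
-/

namespace Vale.Agent.P323.U

open CategoryTheory Vale.Agent.P323.Z

attribute [local instance] MSet.act

variable {D : Type 1} [Category.{1} D]

theorem res_inj [TwBase D] {x y : D} {u v : x ⟶ y} {h : Emb y}
    (e : Emb.res u h = Emb.res v h) : u = v := by
  induction h using Emb.ind with
  | _ n z => exact cancel z (mk_inj e)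

theorem supp_emb [TwBase D] {x : D} (e : Emb x) :
    ∃ n, ∀ k ∈ stab (std (D := D) n), k • e = e := by
  obtain ⟨n, u, rfl⟩ := mk_res e
  exact ⟨n, fun k hk => by rw [smul_res, mem_stab.1 hk]⟩

variable (D) in
/-- the set of all embeddings of `a (n + i)` -/
def embSet [TwBase D] (i : ℕ) : MSet (filt D) where
  Pt := Σ n : ℕ, Emb (a (n + i) : D)
  act := inferInstance
  symPt := by
    rintro ⟨n, e⟩
    obtain ⟨m, hm⟩ := supp_emb e
    exact ⟨stab (std m), ⟨m, le_rfl⟩, fun k hk => congrArg (Sigma.mk n) (hm k hk)⟩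
  car := Set.univ
  sym := ⟨⊤, ⟨0, le_top⟩, fun _ _ _ _ => trivial⟩

theorem notAC_of [Tw D] (hne : ∀ x : D, Nonempty (Emb x)) (hom : Homog D) :
    ¬ AC (filt D) := by
  intro hAC
  let f : (embSet D 1).car → (embSet D 0).car := fun x =>
    ⟨⟨x.1.1, Emb.res (ι x.1.1) x.1.2⟩, trivial⟩
  have hf : SymMap (embSet D 1) (embSet D 0) f := by
    refine ⟨⊤, ⟨0, le_top⟩, ?_⟩
    rintro k - ⟨⟨n, e⟩, -⟩ -
    exact congrArg (Sigma.mk n) (smul_res k (ι n) e).symm
  have hs : Function.Surjective f := by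
    rintro ⟨⟨n, e⟩, -⟩
    obtain ⟨e', he'⟩ := res_surj hne hom (ι n) e
    exact ⟨⟨⟨n, e'⟩, trivial⟩, Subtype.ext (congrArg (Sigma.mk n) he')⟩
  obtain ⟨s, ⟨K, ⟨n, hK⟩, hK'⟩, hfs⟩ := hAC _ _ f hf hs
  let y0 : (embSet D 0).car := ⟨⟨n, std n⟩, trivial⟩
  have h0 : ∀ k ∈ stab (std (D := D) n), k • (s y0).1 = (s y0).1 := by
    intro k hk
    have h1 : k • y0.1 = y0.1 := congrArg (Sigma.mk n) (mem_stab.1 hk)
    have h2 := hK' k (hK hk) y0 trivial
    have h3 : (⟨k • y0.1, trivial⟩ : (embSet D 0).car) = y0 := Subtype.ext h1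
    rw [show (⟨(embSet D 0).app k y0.1, trivial⟩ : (embSet D 0).car) = y0 from h3] at h2
    exact h2.symm
  have h1 := congrArg Subtype.val (hfs y0)
  obtain ⟨⟨⟨n', e⟩, hx⟩, hsy⟩ : ∃ z, s y0 = z := ⟨_, rfl⟩
  rw [hsy] at h0 h1
  have h2 : n' = n := congrArg Sigma.fst h1
  subst h2
  have h3 : Emb.res (ι n') e = std n' := eq_of_heq (Sigma.mk.inj h1).2
  have h4 : ∀ k ∈ stab (std (D := D) n'), k • e = e := fun k hk =>
    eq_of_heq (Sigma.mk.inj (h0 k hk)).2
  obtain ⟨N, hN, v, rfl⟩ := exists_rep e n'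
  have h5 : ι n' ≫ v = chain hN := by
    refine mk_inj (n := N) ?_
    rw [mk_chain_std]
    exact h3
  obtain ⟨w, j1, j2, hpb⟩ := exists_am (chain (D := D) hN) (chain hN)
  obtain ⟨h⟩ := hne w
  obtain ⟨σ, hσ⟩ := hom _ (std N) (Emb.res j1 h)
  obtain ⟨τ, hτ⟩ := hom _ (std N) (Emb.res j2 h)
  have h6 : σ • std (D := D) n' = τ • std n' := by
    rw [← res_chain_std hN, smul_res, smul_res, hσ, hτ, Emb.res_res, Emb.res_res, hpb.1]
  have h7 := h4 (σ⁻¹ * τ) (by rw [mem_stab, mul_smul, ← h6, inv_smul_smul])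
  rw [mul_smul, inv_smul_eq_iff, mk_eq_res_std, smul_res, smul_res, hσ, hτ, Emb.res_res,
    Emb.res_res] at h7
  have h8 : v ≫ j2 = v ≫ j1 := res_inj h7
  obtain ⟨w', hw', -⟩ := hpb.2 v v h8.symm
  have h9 : ι n' ≫ w' = 𝟙 (a n') := by
    refine cancel (chain hN) ?_
    rw [Category.assoc, hw', h5, Category.id_comp]
  refine TwBase.ι_not (D := D) n' ⟨w', cancel w' ?_⟩
  rw [Category.assoc, h9, Category.comp_id, Category.id_comp]

theorem js1 [Tw D] : JS1 D := by
  intro n c α j j' b b' E E' γ γ' hα hα' hγ hγ' inv inv' w f e e' s t h1 h2 hs ht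
  exact js_stage (n := n) (c := c) (α := α) ⟨b, E, γ, hα, hγ, inv⟩ ⟨b', E', γ', hα', hγ', inv'⟩
    hs ht h1 h2

theorem js2 [Tw D] : JS2 D := by
  intro j τ w f e e' s t h1 h2 hs ht
  exact (js_same τ hs ht h1 h2).2

theorem stepOne [Tw D] : Step1 D := by
  intro b E x d u v s t h hpb y e e' he
  exact E.step1 h hpb e e' he

/-- **The permutation model of a tower: the partition principle without choice.** -/
theorem result_of [Tw D] (hne : ∀ x : D, Nonempty (Emb x)) (hom : Homog D) :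
    PP (filt D) ∧ ¬ AC (filt D) :=
  ⟨pp_of hne hom coded stepOne js1 js2, notAC_of hne hom⟩

end Vale.Agent.P323.U
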