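import Vale.Agent.P323.H610.UCore

/-!
# The partition principle in the permutation model of a tower
-/

namespace Vale.Agent.P323.U

open CategoryTheory Vale.Agent.P323.Z

attribute [local instance] MSet.act

variable {D : Type 1} [Category.{1} D]

theorem mk_chain_std [TwBase D] {n m : ℕ} (h : n ≤ m) : Emb.mk m (chain (D := D) h) = std n := by
  have := Emb.mk_chain h (𝟙 (a n : D))
  rwa [Category.id_comp] at this

/-- orbits under the stabilizer of a standard embedding -/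
def orbS [TwBase D] (Y : MSet (filt D)) (n : ℕ) : Setoid Y.car where
  r y y' := ∃ g ∈ stab (std (D := D) n), g • y.1 = y'.1
  iseqv := by
    refine ⟨fun y => ⟨1, one_mem _, one_smul _ _⟩, ?_, ?_⟩
    · rintro y y' ⟨g, hg, h⟩
      exact ⟨g⁻¹, inv_mem hg, by rw [← h, inv_smul_smul]⟩
    · rintro y y' y'' ⟨g, hg, h⟩ ⟨g', hg', h'⟩
      exact ⟨g' * g, mul_mem hg' hg, by rw [mul_smul, h, h']⟩

/-- representatives of the orbits -/
noncomputable def rep [TwBase D] (Y : MSet (filt D)) (n : ℕ) (y : Y.car) : Y.car :=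
  (Quotient.mk (orbS Y n) y).out

theorem rep_spec [TwBase D] (Y : MSet (filt D)) (n : ℕ) (y : Y.car) :
    ∃ g ∈ stab (std (D := D) n), g • (rep Y n y).1 = y.1 :=
  Quotient.exact (s := orbS Y n) (Quotient.out_eq (Quotient.mk (orbS Y n) y))

theorem rep_eq [TwBase D] (Y : MSet (filt D)) (n : ℕ) {y y' : Y.car}
    (h : ∃ g ∈ stab (std (D := D) n), g • y.1 = y'.1) : rep Y n y = rep Y n y' := by
  have : Quotient.mk (orbS Y n) y = Quotient.mk (orbS Y n) y' := Quotient.sound h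
  rw [rep, rep, this]

theorem rep_rep [TwBase D] (Y : MSet (filt D)) (n : ℕ) (y : Y.car) :
    rep Y n (rep Y n y) = rep Y n y := rep_eq Y n (rep_spec Y n y)

variable [Tw D]

theorem pp_of (hne : ∀ x : D, Nonempty (Emb x)) (hom : Homog D) (hcod : Coded D)
    (hstep : Step1 D) (js1 : JS1 D) (js2 : JS2 D) : PP (filt D) := by
  classical
  rintro X Y ⟨f, ⟨K1, ⟨n1, hK1⟩, hf⟩, hsurj⟩
  obtain ⟨K2, ⟨n2, hK2⟩, hX⟩ := X.sym
  obtain ⟨K3, ⟨n3, hK3⟩, hY⟩ := Y.sym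
  set n := max n1 (max n2 n3) with hn
  have hn1 : n1 ≤ n := le_max_left _ _
  have hn2 : n2 ≤ n := (le_max_left _ _).trans (le_max_right _ _)
  have hn3 : n3 ≤ n := (le_max_right _ _).trans (le_max_right _ _)
  have fX : ∀ k ∈ stab (std (D := D) n), ∀ x ∈ X.car, k • x ∈ X.car :=
    fun k hk x hx => hX k (hK2 (stab_std_anti hn2 hk)) x hx
  have fY : ∀ k ∈ stab (std (D := D) n), ∀ y ∈ Y.car, k • y ∈ Y.car :=
    fun k hk x hx => hY k (hK3 (stab_std_anti hn3 hk)) x hx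
  have ff : ∀ k ∈ stab (std (D := D) n), ∀ (x : X.car) (hx : k • x.1 ∈ X.car),
      (f ⟨k • x.1, hx⟩).1 = k • (f x).1 :=
    fun k hk x hx => hf k (hK1 (stab_std_anti hn1 hk)) x hx
  choose xs hxs using hsurj
  have hsup : ∀ y : Y.car, ∃ m, n ≤ m ∧ Supp D X.Pt m (xs y).1 ∧ Supp D Y.Pt m y.1 := by
    intro y
    obtain ⟨L1, ⟨m1, hL1⟩, h1⟩ := X.symPt (xs y).1
    obtain ⟨L2, ⟨m2, hL2⟩, h2⟩ := Y.symPt y.1
    refine ⟨max n (max m1 m2), le_max_left _ _, ?_, ?_⟩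
    · intro k hk
      exact h1 k (hL1 (stab_std_anti ((le_max_left _ _).trans (le_max_right _ _)) hk))
    · intro k hk
      exact h2 k (hL2 (stab_std_anti ((le_max_right _ _).trans (le_max_right _ _)) hk))
  choose m hm hmx hmy using hsup
  have hpr : ∀ y : Y.car, Supp D X.Pt n (xs y).1 → Supp D Y.Pt n y.1 := by
    intro y h k hk
    have h1 := ff k hk (xs y) (fX k hk _ (xs y).2)
    have h2 : (⟨k • (xs y).1, fX k hk _ (xs y).2⟩ : X.car) = xs y := Subtype.ext (h k hk)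
    rw [h2, hxs] at h1
    exact h1.symm
  choose F hF1 hF2 hF3 using fun y : Y.car =>
    core hne hom hcod hstep js1 js2 (hm y) (hmx y) (hmy y) (hpr y)
  -- pieces
  have hpiece : ∀ Q : Y.car, ∃ q : QP D (hm (rep Y n Q)),
      tr hom (rep Y n Q).1 (Emb.mk q.M q.u) = Q.1 := by
    intro Q
    obtain ⟨g, hg, hgQ⟩ := rep_spec Y n Q
    obtain ⟨M, hM, u, hu⟩ := exists_rep (g • std (D := D) (m (rep Y n Q))) (n + 1)
    refine ⟨⟨M, hM, u, ?_⟩, ?_⟩
    · refine mk_inj (n := M) ?_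
      rw [mk_chain_std, ← Emb.res_mk, ← hu, ← smul_res, res_chain_std]
      exact hg
    · show tr hom (rep Y n Q).1 (Emb.mk M u) = Q.1
      rw [← hu, tr_smul (hmy _), tr_std (hmy _), hgQ]
  choose q hq using hpiece
  set W : Y.car → X.Pt := fun Q =>
    tr hom (xs (rep Y n Q)).1 (Emb.mk (q Q).M (F (rep Y n Q) (q Q))) with hW
  have hWh : ∀ Q, ∃ h ∈ stab (std (D := D) n), W Q = h • (xs (rep Y n Q)).1 := by
    intro Q
    obtain ⟨h, hh⟩ := hom _ (std (m (rep Y n Q))) (Emb.mk (q Q).M (F (rep Y n Q) (q Q)))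
    refine ⟨h, ?_, ?_⟩
    · rw [mem_stab, ← res_chain_std (hm (rep Y n Q)), smul_res, hh, Emb.res_mk,
        hF1 (rep Y n Q) (q Q), mk_chain_std]
      exact (res_chain_std (hm (rep Y n Q))).symm
    · simp only [hW]
      rw [← hh, tr_smul_std (hmx _)]
  have hle : stab (std (D := D) (n + 1)) ≤ stab (std n) := stab_std_anti (Nat.le_succ n)
  have hWX : ∀ Q, W Q ∈ X.car := by
    intro Q
    obtain ⟨h, hh, hh'⟩ := hWh Q
    rw [hh']
    exact fX h hh _ (xs _).2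
  have hWd : ∀ Q, ∀ k ∈ stab (std (D := D) (n + 1)), k • Q.1 = Q.1 → k • W Q = W Q := by
    intro Q k hk hkQ
    refine hF2 (rep Y n Q) (q Q) k hk ?_
    rw [hq Q]
    exact hkQ
  -- the injection
  choose g hg hgy using fun y : Y.car => rep_spec Y (n + 1) y
  let J : Y.car → X.car := fun y =>
    ⟨g y • W (rep Y (n + 1) y), fX _ (hle (hg y)) _ (hWX _)⟩
  have hJ : ∀ (y : Y.car) (k : Aut D), k ∈ stab (std (D := D) (n + 1)) →
      k • (rep Y (n + 1) y).1 = y.1 → (J y).1 = k • W (rep Y (n + 1) y) := by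
    intro y k hk hky
    have h1 : (k⁻¹ * g y) • (rep Y (n + 1) y).1 = (rep Y (n + 1) y).1 := by
      rw [mul_smul, hgy, ← hky, inv_smul_smul]
    have h2 := hWd _ _ (mul_mem (inv_mem hk) (hg y)) h1
    rw [mul_smul, inv_smul_eq_iff] at h2
    exact h2
  have hJf : ∀ y : Y.car, ∃ k ∈ stab (std (D := D) n),
      (f (J y)).1 = k • (rep Y n (rep Y (n + 1) y)).1 := by
    intro y
    obtain ⟨h, hh, hh'⟩ := hWh (rep Y (n + 1) y)
    refine ⟨g y * h, mul_mem (hle (hg y)) hh, ?_⟩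
    have h1 : (J y).1 = (g y * h) • (xs (rep Y n (rep Y (n + 1) y))).1 := by
      rw [mul_smul, ← hh']
    have h2 : (g y * h) • (xs (rep Y n (rep Y (n + 1) y))).1 ∈ X.car := h1 ▸ (J y).2
    have h3 : J y = ⟨(g y * h) • (xs (rep Y n (rep Y (n + 1) y))).1, h2⟩ := Subtype.ext h1
    rw [h3, ff (g y * h) (mul_mem (hle (hg y)) hh) _ h2, hxs]
  refine ⟨J, ⟨stab (std (n + 1)), ⟨n + 1, le_rfl⟩, ?_⟩, ?_⟩
  · intro k hk y hy
    have h1 : rep Y (n + 1) ⟨k • y.1, hy⟩ = rep Y (n + 1) y :=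
      (rep_eq Y (n + 1) ⟨k, hk, rfl⟩).symm
    have h2 := hJ ⟨k • y.1, hy⟩ (k * g y) (mul_mem hk (hg y)) (by rw [h1, mul_smul, hgy])
    rw [h1, mul_smul] at h2
    exact h2
  · intro y1 y2 h12
    obtain ⟨k1, hk1, e1⟩ := hJf y1
    obtain ⟨k2, hk2, e2⟩ := hJf y2
    have hP : rep Y n (rep Y (n + 1) y1) = rep Y n (rep Y (n + 1) y2) := by
      rw [← rep_rep Y n (rep Y (n + 1) y1), ← rep_rep Y n (rep Y (n + 1) y2)]
      refine rep_eq Y n ⟨k2⁻¹ * k1, mul_mem (inv_mem hk2) hk1, ?_⟩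
      rw [mul_smul, ← e1, h12, e2, inv_smul_smul]
    have key : ∀ (P1 P2 : Y.car) (_ : P1 = P2) (q1 : QP D (hm P1)) (q2 : QP D (hm P2)),
        ¬ Supp D Y.Pt n P1.1 → ∀ g1 ∈ stab (std (D := D) (n + 1)),
        ∀ g2 ∈ stab (std (D := D) (n + 1)),
        g1 • tr hom (xs P1).1 (Emb.mk q1.M (F P1 q1)) =
          g2 • tr hom (xs P2).1 (Emb.mk q2.M (F P2 q2)) →
        g1 • tr hom P1.1 (Emb.mk q1.M q1.u) = g2 • tr hom P2.1 (Emb.mk q2.M q2.u) := by
      rintro P1 _ rfl q1 q2 hns g1 hg1 g2 hg2 h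
      exact hF3 P1 hns q1 q2 g1 hg1 g2 hg2 h
    by_cases hs : Supp D Y.Pt n (rep Y n (rep Y (n + 1) y1)).1
    · have h3 : ∀ y : Y.car, ∃ k ∈ stab (std (D := D) n),
          k • (rep Y n (rep Y (n + 1) y)).1 = y.1 := by
        intro y
        obtain ⟨k, hk, hk'⟩ := rep_spec Y n (rep Y (n + 1) y)
        exact ⟨g y * k, mul_mem (hle (hg y)) hk, by rw [mul_smul, hk', hgy]⟩
      obtain ⟨l1, hl1, el1⟩ := h3 y1
      obtain ⟨l2, hl2, el2⟩ := h3 y2
      refine Subtype.ext ?_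
      rw [← el1, ← el2, ← hP, hs l1 hl1, hs l2 hl2]
    · have h4 := key _ _ hP (q (rep Y (n + 1) y1)) (q (rep Y (n + 1) y2)) hs _ (hg y1) _ (hg y2)
        (congrArg Subtype.val h12)
      rw [hq, hq, hgy, hgy] at h4
      exact Subtype.ext h4

end Vale.Agent.P323.U
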